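import Vale.Agent.P162O.FinalO
import Vale.Agent.P162O.Lower

open Vale.Agent.P162

/-- For a deck of `n = 2 * 2 ^ d = 2 ^ (d + 1)` cards, the mixing time of the Thorp shuffle is of order `d + 1 = log₂ n`:
after `tmix (2 ^ d)` shuffles the law is within total variation `1 / 4` of uniform, and `(d + 1) / 2 ≤ tmix (2 ^ d) ≤ C (d + 1)`
for an absolute constant `C`. -/
theorem Vale.Agent.Results.P162.ThorpLinear.result :
    ∃ C : ℕ, ∀ d : ℕ,
      tvUnif (convPow (thorpLaw (2 ^ d)) (tmix (2 ^ d))) ≤ 1 / 4 ∧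
        d + 1 ≤ 2 * tmix (2 ^ d) ∧ tmix (2 ^ d) ≤ C * (d + 1) := by
  obtain ⟨C, hC⟩ := Vale.Agent.P162O.tmix_linear
  refine ⟨C, fun d => ⟨?_, Vale.Agent.P162O.tmix_lower d, hC d⟩⟩
  have hne : {t : ℕ | tvUnif (convPow (thorpLaw (2 ^ d)) t) ≤ 1 / 4}.Nonempty := ⟨_, thorp_tv d⟩
  exact Nat.sInf_mem hne
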