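import Vale.Agent.P162.Final

open Vale.Agent.P162

/-- For a deck of `n = 2 * 2 ^ d = 2 ^ (d + 1)` cards, `12800 * (d + 1) ^ 2` Thorp shuffles bring the law of the
permutation within total variation `1 / 4` of uniform, so `t_mix(n) ≤ 12800 (log₂ n)²`. -/
theorem Vale.Agent.Results.P162.ThorpLogSquared.result (d : ℕ) :
    tvUnif (convPow (thorpLaw (2 ^ d)) (12800 * (d + 1) ^ 2)) ≤ 1 / 4 ∧
      tmix (2 ^ d) ≤ 12800 * (d + 1) ^ 2 :=
  ⟨thorp_tv d, tmix_le d⟩
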